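import Vale.Agent.P007.Main

namespace Vale.Agent.Results.P007.Composite

open Module Set MeasureTheory Filter Polynomial Vale.Agent.P007

/-- First part: equidistribution fails in every composite degree `n = m + 1 ≥ 4`. Second part: in
any degree, a polynomial having roots in infinitely many of the orders prevents convergence. -/
theorem result :
    (∀ m : ℕ, 3 ≤ m → ¬ (m + 1).Prime →
      ∃ (K : Type) (_ : Field K) (_ : NumberField K) (σ : Fin (m + 1) ≃ (K →+* ℝ))
        (O : ℕ → Subring K), finrank ℚ K = m + 1 ∧ (∀ i, IsOrder (O i)) ∧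
        Tendsto (fun i => absDisc (O i)) atTop atTop ∧
        (∃ U : Set (X m), IsOpen U ∧ U.Nonempty ∧ ∀ i, packetMeasure σ (O i) U = 0) ∧
        ∀ μ : Measure (X m), IsInvariantProbability μ → ∀ s : ℕ → ℕ, StrictMono s →
          ¬ ConvergesTo (fun i => packetMeasure σ (O (s i))) μ) ∧
    (∀ (m : ℕ) (K : ℕ → Type) [∀ i, Field (K i)] [∀ i, NumberField (K i)]
      (σ : ∀ i, Fin (m + 1) ≃ (K i →+* ℝ)) (O : ∀ i, Subring (K i)) (μ : Measure (X m)),
      (∀ i, finrank ℚ (K i) = m + 1) → IsInvariantProbability μ →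
      ConvergesTo (fun i => packetMeasure (σ i) (O i)) μ →
      ∀ f : ℚ[X], Irreducible f → 2 ≤ f.natDegree → {i | ∃ y ∈ O i, aeval y f = 0}.Finite) :=
  ⟨composite, fun _ K _ _ σ O _ hdeg hμ hc _ hf h2 =>
    finite_of_converges K σ hdeg O hμ hc hf h2⟩

end Vale.Agent.Results.P007.Composite
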